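import Mathlib

namespace Vale.Agent.Lib.P034

open Finset

/-- Bernoulli-type inequality. -/
lemma add_pow_ge (S z : ℝ) (hS : 0 ≤ S) (hz : 0 ≤ z) (m : ℕ) :
    S ^ (m + 1) + (m + 1 : ℝ) * z * S ^ m ≤ (S + z) ^ (m + 1) := by
  induction m with
  | zero => simp
  | succ m ih =>
    have h1 : (S + z) ^ (m + 1 + 1) = (S + z) * (S + z) ^ (m + 1) := by ring
    have e1 : S ^ (m + 1 + 1) = S * S * S ^ m := by ring
    have e2 : S ^ (m + 1) = S * S ^ m := by ring
    rw [h1, e1, e2]
    rw [e2] at ih
    have hP : 0 ≤ S ^ m := by positivity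
    generalize S ^ m = P at *
    generalize (S + z) ^ (m + 1) = Q at *
    have h2 : (S + z) * (S * P + (m + 1 : ℝ) * z * P) ≤ (S + z) * Q :=
      mul_le_mul_of_nonneg_left ih (by positivity)
    have h3 : 0 ≤ (m + 1 : ℝ) * z * z * P := by positivity
    push_cast
    nlinarith [h2, h3]

/-- Elementary symmetric sums are bounded by the power of the sum over the factorial. -/
lemma sum_powersetCard_prod_le {ι : Type*} [DecidableEq ι] (z : ι → ℝ) (C : Finset ι)
    (hz : ∀ i ∈ C, 0 ≤ z i) (m : ℕ) :
    ∑ B ∈ C.powersetCard m, ∏ i ∈ B, z i ≤ (∑ i ∈ C, z i) ^ m / (m.factorial : ℝ) := by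
  induction C using Finset.induction_on generalizing m with
  | empty =>
    cases m with
    | zero => simp
    | succ m =>
      rw [powersetCard_eq_empty.mpr (by simp)]
      simp
  | insert a C ha ih =>
    have hzC : ∀ i ∈ C, 0 ≤ z i := fun i hi => hz i (mem_insert_of_mem hi)
    have hza : 0 ≤ z a := hz a (mem_insert_self a C)
    cases m with
    | zero => simp
    | succ m =>
      rw [powersetCard_succ_insert ha, sum_union, sum_image]
      · have e1 : ∑ B ∈ C.powersetCard m, ∏ i ∈ insert a B, z i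
            = z a * ∑ B ∈ C.powersetCard m, ∏ i ∈ B, z i := by
          rw [mul_sum]
          refine sum_congr rfl fun B hB => ?_
          rw [prod_insert]
          intro haB
          exact ha ((mem_powersetCard.mp hB).1 haB)
        rw [e1, sum_insert ha]
        have i1 := ih hzC (m + 1)
        have i2 := ih hzC m
        set S := ∑ i ∈ C, z i with hS
        have hS0 : 0 ≤ S := sum_nonneg hzC
        have hb := add_pow_ge S (z a) hS0 hza m
        have hf : ((m + 1).factorial : ℝ) = (m + 1 : ℝ) * (m.factorial : ℝ) := by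
          rw [Nat.factorial_succ]; push_cast; ring
        have hfpos : (0 : ℝ) < (m.factorial : ℝ) := by exact_mod_cast Nat.factorial_pos m
        have i2' : z a * ∑ B ∈ C.powersetCard m, ∏ i ∈ B, z i ≤ z a * (S ^ m / (m.factorial : ℝ)) :=
          mul_le_mul_of_nonneg_left i2 hza
        calc ∑ B ∈ C.powersetCard (m + 1), ∏ i ∈ B, z i + z a * ∑ B ∈ C.powersetCard m, ∏ i ∈ B, z i
            ≤ S ^ (m + 1) / ((m + 1).factorial : ℝ) + z a * (S ^ m / (m.factorial : ℝ)) := add_le_add i1 i2'
          _ = (S ^ (m + 1) + (m + 1 : ℝ) * z a * S ^ m) / ((m + 1).factorial : ℝ) := by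
            rw [hf]; field_simp
          _ ≤ (z a + S) ^ (m + 1) / ((m + 1).factorial : ℝ) := by
            rw [add_comm (z a) S]
            exact div_le_div_of_nonneg_right hb (by positivity)
      · intro B hB B' hB' h
        have hB1 : a ∉ B := fun haB => ha ((mem_powersetCard.mp hB).1 haB)
        have hB2 : a ∉ B' := fun haB => ha ((mem_powersetCard.mp hB').1 haB)
        have := congrArg (fun s => s.erase a) h
        simpa [erase_insert hB1, erase_insert hB2] using this
      · rw [disjoint_left]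
        intro B hB hB'
        rw [mem_image] at hB'
        obtain ⟨B0, hB0, rfl⟩ := hB'
        exact ha ((mem_powersetCard.mp hB).1 (mem_insert_self a B0))

lemma sum_pow_div3 (r : ℝ) (h0 : 0 ≤ r) (h1 : r ≤ 1/7) (J : ℕ) :
    ∑ j ∈ range J, r ^ (1 + j / 3) ≤ 1/2 := by
  induction J using Nat.strong_induction_on with
  | _ J ih =>
    rcases Nat.lt_or_ge J 3 with h | h
    · interval_cases J
      · simp
      · simp; linarith
      · simp [Finset.sum_range_succ]; linarith
    · obtain ⟨K, rfl⟩ : ∃ K, J = 3 + K := ⟨J - 3, by omega⟩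
      rw [Finset.sum_range_add]
      have e : ∀ x, r ^ (1 + (3 + x) / 3) = r * r ^ (1 + x / 3) := by
        intro x
        rw [Nat.add_div_left x (by norm_num : 0 < 3)]
        ring
      simp only [e]
      rw [← Finset.mul_sum]
      have hK := ih K (by omega)
      have hK0 : 0 ≤ ∑ j ∈ range K, r ^ (1 + j / 3) := Finset.sum_nonneg fun j _ => by positivity
      have : ∑ x ∈ range 3, r ^ (1 + x / 3) = 3 * r := by
        simp [Finset.sum_range_succ]; ring
      rw [this]
      nlinarith [mul_le_mul_of_nonneg_left hK h0]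

lemma sum_half_pow_div3 (J : ℕ) :
    ∑ j ∈ range J, (1/2 : ℝ) ^ j * ((j / 3 : ℕ) : ℝ) ≤ 2/7 := by
  induction J using Nat.strong_induction_on with
  | _ J ih =>
    rcases Nat.lt_or_ge J 3 with h | h
    · interval_cases J
      · simp; norm_num
      · simp; norm_num
      · simp [Finset.sum_range_succ]; norm_num
    · obtain ⟨K, rfl⟩ : ∃ K, J = 3 + K := ⟨J - 3, by omega⟩
      rw [Finset.sum_range_add]
      have e : ∀ x : ℕ, (1/2 : ℝ) ^ (3 + x) * (((3 + x) / 3 : ℕ) : ℝ)
          = (1/8) * ((1/2 : ℝ) ^ x * ((x / 3 : ℕ) : ℝ)) + (1/8) * (1/2 : ℝ) ^ x := by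
        intro x
        rw [Nat.add_div_left x (by norm_num : 0 < 3)]
        push_cast
        ring
      simp only [e]
      rw [Finset.sum_add_distrib, ← Finset.mul_sum, ← Finset.mul_sum]
      have hK := ih K (by omega)
      have hg := sum_geometric_two_le K
      have : ∑ x ∈ range 3, (1/2 : ℝ) ^ x * ((x / 3 : ℕ) : ℝ) = 0 := by
        simp [Finset.sum_range_succ]
      rw [this]
      linarith

lemma exists_cls (g : ℝ) (hg : 0 < g) : ∃ n : ℕ, (1/2 : ℝ) ^ (n + 1) < g := by
  obtain ⟨n, hn⟩ := exists_pow_lt_of_lt_one hg (by norm_num : (1/2 : ℝ) < 1)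
  refine ⟨n, lt_of_le_of_lt ?_ hn⟩
  exact pow_le_pow_of_le_one (by norm_num) (by norm_num) (Nat.le_succ n)

open Classical in
/-- The dyadic class of a positive weight. -/
noncomputable def cls (g : ℝ) : ℕ := if h : 0 < g then Nat.find (exists_cls g h) else 0

lemma cls_lt (g : ℝ) (hg : 0 < g) : (1/2 : ℝ) ^ (cls g + 1) < g := by
  unfold cls; rw [dif_pos hg]; exact Nat.find_spec (exists_cls g hg)

lemma le_cls (g : ℝ) (hg : 0 < g) (hg1 : g ≤ 1) : g ≤ (1/2 : ℝ) ^ (cls g) := by
  rcases Nat.eq_zero_or_pos (cls g) with h | h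
  · rw [h]; simpa using hg1
  · obtain ⟨k, hk⟩ := Nat.exists_eq_succ_of_ne_zero (Nat.pos_iff_ne_zero.mp h)
    have hk' : k < Nat.find (exists_cls g hg) := by
      unfold cls at hk; rw [dif_pos hg] at hk; omega
    have := Nat.find_min (exists_cls g hg) hk'
    rw [hk]; exact not_lt.mp this

end Vale.Agent.Lib.P034
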