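import Vale.Agent.Lib.P034.Rounding

/-!
Rounding of fractional covers with pairwise disjoint supports (problem P034).
-/

namespace Vale.Agent.Lib.P034

open Finset

lemma min_one_sum_le {ι : Type*} (A : Finset ι) (a : ι → ℝ) (ha : ∀ i ∈ A, 0 ≤ a i) :
    min 1 (∑ i ∈ A, a i) ≤ ∑ i ∈ A, min 1 (a i) := by
  classical
  induction A using Finset.induction_on with
  | empty => simp
  | insert b A hb ih =>
    rw [sum_insert hb, sum_insert hb]
    have h1 := ih (fun i hi => ha i (mem_insert_of_mem hi))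
    have h2 : 0 ≤ a b := ha b (mem_insert_self b A)
    have h3 : 0 ≤ ∑ i ∈ A, a i := sum_nonneg fun i hi => ha i (mem_insert_of_mem hi)
    have h4 : 0 ≤ ∑ i ∈ A, min 1 (a i) :=
      sum_nonneg fun i hi => le_min zero_le_one (ha i (mem_insert_of_mem hi))
    rcases le_total 1 (a b) with h | h
    · rw [min_eq_left h]
      have : min 1 (a b + ∑ i ∈ A, a i) ≤ 1 := min_le_left _ _
      linarith
    · rw [min_eq_right h]
      rcases le_total 1 (∑ i ∈ A, a i) with h' | h'
      · rw [min_eq_left h'] at h1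
        have : min 1 (a b + ∑ i ∈ A, a i) ≤ 1 := min_le_left _ _
        linarith
      · rw [min_eq_right h'] at h1
        have : min 1 (a b + ∑ i ∈ A, a i) ≤ a b + ∑ i ∈ A, a i := min_le_right _ _
        linarith

/-- Rounding of a fractional cover whose support consists of pairwise disjoint sets. -/
theorem disjoint_support_rounding {X : Type*} [Fintype X] [DecidableEq X]
    (F : Finset (Finset X)) (g : Finset X → ℝ) (p : ℝ) (hp0 : 0 ≤ p)
    (hg : ∀ S, 0 ≤ g S ∧ g S ≤ 1)
    (hcov : ∀ H ∈ F, 1 ≤ ∑ S ∈ H.powerset, g S)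
    (hcost : ∑ S : Finset X, g S * p ^ S.card ≤ 1 / 2)
    (hdisj : ∀ S T, g S ≠ 0 → g T ≠ 0 → S ≠ T → Disjoint S T) :
    ∃ G : Finset (Finset X), (∀ H ∈ F, ∃ S ∈ G, S ⊆ H) ∧
      ∑ S ∈ G, (p / 42) ^ S.card ≤ 1 / 2 := by
  classical
  set γ : ℝ := g ∅ with hγ
  have hγ0 : 0 ≤ γ := (hg ∅).1
  set s : Finset (Finset X) := univ.filter (fun S => g S ≠ 0 ∧ S.Nonempty) with hs
  have hs_mem : ∀ S, S ∈ s ↔ (g S ≠ 0 ∧ S.Nonempty) := by
    intro S; simp [hs]
  have hempty : (∅ : Finset X) ∉ s := by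
    rw [hs_mem]; simp
  have hnn : ∀ S : Finset X, 0 ≤ g S * p ^ S.card := fun S =>
    mul_nonneg (hg S).1 (pow_nonneg hp0 _)
  -- the cost on the nonempty supports
  have hcost' : γ + ∑ S ∈ s, g S * p ^ S.card ≤ 1 / 2 := by
    have h1 : ∑ S ∈ insert ∅ s, g S * p ^ S.card ≤ ∑ S : Finset X, g S * p ^ S.card :=
      sum_le_sum_of_subset_of_nonneg (subset_univ _) (fun S _ _ => hnn S)
    rw [sum_insert hempty] at h1
    simp only [card_empty, pow_zero, mul_one] at h1
    linarith
  have hs0 : 0 ≤ ∑ S ∈ s, g S * p ^ S.card := sum_nonneg fun S _ => hnn S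
  have hγ1 : γ ≤ 1 / 2 := by linarith
  have hγpos : 0 < 1 - γ := by linarith
  set g' : Finset X → ℝ := fun S => min 1 (g S / (1 - γ)) with hg'
  set y : Finset X → ℝ := fun S => p ^ S.card with hy
  have hgpos : ∀ S ∈ s, 0 < g S := fun S hS =>
    lt_of_le_of_ne (hg S).1 (Ne.symm ((hs_mem S).mp hS).1)
  have h1 : ∀ S ∈ s, 0 < g' S := fun S hS =>
    lt_min zero_lt_one (div_pos (hgpos S hS) hγpos)
  have h2 : ∀ S ∈ s, g' S ≤ 1 := fun S _ => min_le_left _ _
  have h3 : ∀ S ∈ s, 0 ≤ y S := fun S _ => pow_nonneg hp0 _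
  have h4 : ∑ S ∈ s, g' S * y S ≤ 1 / 2 := by
    have e1 : ∑ S ∈ s, g' S * y S ≤ ∑ S ∈ s, (g S * p ^ S.card) / (1 - γ) := by
      refine sum_le_sum fun S hS => ?_
      have : g' S ≤ g S / (1 - γ) := min_le_right _ _
      calc g' S * y S ≤ g S / (1 - γ) * y S := mul_le_mul_of_nonneg_right this (h3 S hS)
        _ = (g S * p ^ S.card) / (1 - γ) := by simp only [hy]; ring
    rw [← sum_div] at e1
    have e2 : (∑ S ∈ s, g S * p ^ S.card) / (1 - γ) ≤ 1 / 2 := by
      rw [div_le_iff₀ hγpos]
      linarith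
    linarith
  obtain ⟨𝒜, hA1, hA2, hA3⟩ := weighted_rounding s g' y h1 h2 h3 h4
  refine ⟨𝒜.image (fun B => B.biUnion id), ?_, ?_⟩
  · intro H hH
    set A : Finset (Finset X) := s.filter (fun S => S ⊆ H) with hA
    have hAs : A ⊆ s := filter_subset _ _
    have hsum : 1 - γ ≤ ∑ S ∈ A, g S := by
      have e1 : ∑ S ∈ insert ∅ A, g S = ∑ S ∈ H.powerset, g S := by
        refine sum_subset ?_ ?_
        · intro S hS
          rw [mem_insert] at hS
          rcases hS with rfl | hS
          · simp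
          · exact mem_powerset.mpr (mem_filter.mp hS).2
        · intro S hS hS'
          by_contra hne
          apply hS'
          rw [mem_insert]
          rcases S.eq_empty_or_nonempty with h | h
          · exact Or.inl h
          · right
            rw [hA, mem_filter, hs_mem]
            exact ⟨⟨hne, h⟩, mem_powerset.mp hS⟩
      have hemptyA : (∅ : Finset X) ∉ A := fun h => hempty (hAs h)
      rw [sum_insert hemptyA] at e1
      have := hcov H hH
      linarith
    have hsum' : 1 ≤ ∑ S ∈ A, g' S := by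
      have e1 := min_one_sum_le A (fun S => g S / (1 - γ))
        (fun S _ => div_nonneg (hg S).1 hγpos.le)
      have e2 : 1 ≤ ∑ S ∈ A, g S / (1 - γ) := by
        rw [← sum_div, le_div_iff₀ hγpos]
        linarith
      rw [min_eq_left e2] at e1
      exact e1
    obtain ⟨B, hB, hBA⟩ := hA2 A hAs hsum'
    refine ⟨B.biUnion id, mem_image_of_mem _ hB, ?_⟩
    rw [biUnion_subset]
    intro S hS
    exact (mem_filter.mp (hBA hS)).2
  · calc ∑ S ∈ 𝒜.image (fun B => B.biUnion id), (p / 42) ^ S.card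
        ≤ ∑ B ∈ 𝒜, (p / 42) ^ (B.biUnion id).card := by
          refine sum_image_le_of_nonneg fun U _ => ?_
          positivity
      _ ≤ ∑ B ∈ 𝒜, ∏ S ∈ B, (y S / 42) := by
          refine sum_le_sum fun B hB => ?_
          have hBs := hA1 B hB
          have hcard : (B.biUnion id).card = ∑ S ∈ B, S.card := by
            refine card_biUnion ?_
            intro S hS T hT hne
            exact hdisj S T ((hs_mem S).mp (hBs hS)).1 ((hs_mem T).mp (hBs hT)).1 hne
          rw [hcard, ← prod_pow_eq_pow_sum]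
          refine prod_le_prod (fun S _ => by positivity) ?_
          intro S hS
          have hSne : S.Nonempty := ((hs_mem S).mp (hBs hS)).2
          have hc : 1 ≤ S.card := hSne.card_pos
          simp only [hy]
          rw [div_pow]
          have hpow : (42 : ℝ) ≤ 42 ^ S.card := by
            calc (42 : ℝ) = 42 ^ 1 := by norm_num
              _ ≤ 42 ^ S.card := pow_le_pow_right₀ (by norm_num) hc
          have hpp : 0 ≤ p ^ S.card := pow_nonneg hp0 _
          exact div_le_div_of_nonneg_left hpp (by norm_num) hpow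
      _ ≤ 1 / 2 := hA3

end Vale.Agent.Lib.P034
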