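import Vale.Agent.Lib.P034.Disjoint

/-!
Rounding of fractional covers with laminar supports (problem P034).
-/

namespace Vale.Agent.Lib.P034

open Finset

/-- Sum of `q ^ card` over a chain of sets containing a fixed set. -/
lemma chain_pow_sum_le {X : Type*} [Fintype X] [DecidableEq X] (U : Finset (Finset X))
    (S' : Finset X) (q : ℝ) (hq0 : 0 ≤ q) (hq2 : q ≤ 1 / 2)
    (hU : ∀ S ∈ U, S' ⊆ S)
    (hchain : ∀ S ∈ U, ∀ T ∈ U, S ⊆ T ∨ T ⊆ S) :
    ∑ S ∈ U, q ^ S.card ≤ 2 * q ^ S'.card := by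
  set a := S'.card with ha
  have hcard : ∀ S ∈ U, a ≤ S.card := fun S hS => card_le_card (hU S hS)
  have e1 : ∑ S ∈ U, q ^ S.card = q ^ a * ∑ S ∈ U, q ^ (S.card - a) := by
    rw [mul_sum]
    refine sum_congr rfl fun S hS => ?_
    rw [← pow_add]
    congr 1
    have := hcard S hS
    omega
  have hinj : Set.InjOn (fun S : Finset X => S.card - a) (U : Set (Finset X)) := by
    intro S hS T hT h
    have h1 := hcard S hS
    have h2 := hcard T hT
    have h3 : S.card = T.card := by
      simp only at h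
      omega
    rcases hchain S hS T hT with h4 | h4
    · exact eq_of_subset_of_card_le h4 h3.ge
    · exact (eq_of_subset_of_card_le h4 h3.le).symm
  have e2 : ∑ S ∈ U, q ^ (S.card - a) = ∑ j ∈ U.image (fun S : Finset X => S.card - a), q ^ j := by
    rw [sum_image hinj]
  have e3 : ∑ j ∈ U.image (fun S : Finset X => S.card - a), q ^ j
      ≤ ∑ j ∈ range (Fintype.card X + 1), q ^ j := by
    refine sum_le_sum_of_subset_of_nonneg ?_ (fun j _ _ => pow_nonneg hq0 j)
    intro j hj
    rw [mem_image] at hj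
    obtain ⟨S, _, rfl⟩ := hj
    rw [mem_range]
    have := card_le_univ S
    omega
  have e4 : ∑ j ∈ range (Fintype.card X + 1), q ^ j
      ≤ ∑ j ∈ range (Fintype.card X + 1), (1 / (2 : ℝ)) ^ j :=
    sum_le_sum fun j _ => pow_le_pow_left₀ hq0 hq2 j
  have e5 := sum_geometric_two_le (Fintype.card X + 1)
  rw [e1, e2]
  have hqa : 0 ≤ q ^ a := pow_nonneg hq0 a
  nlinarith [mul_le_mul_of_nonneg_left (e3.trans (e4.trans e5)) hqa]

/-- Rounding of a fractional cover whose support is a laminar family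
(any two sets of the support are disjoint or nested). -/
theorem laminar_support_rounding {X : Type*} [Fintype X] [DecidableEq X]
    (F : Finset (Finset X)) (g : Finset X → ℝ) (p : ℝ) (hp0 : 0 ≤ p) (hp1 : p ≤ 1)
    (hg : ∀ S, 0 ≤ g S ∧ g S ≤ 1)
    (hcov : ∀ H ∈ F, 1 ≤ ∑ S ∈ H.powerset, g S)
    (hcost : ∑ S : Finset X, g S * p ^ S.card ≤ 1 / 2)
    (hlam : ∀ S T, g S ≠ 0 → g T ≠ 0 → Disjoint S T ∨ S ⊆ T ∨ T ⊆ S) :
    ∃ G : Finset (Finset X), (∀ H ∈ F, ∃ S ∈ G, S ⊆ H) ∧
      ∑ S ∈ G, (p / 168) ^ S.card ≤ 1 / 2 := by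
  classical
  set γ : ℝ := g ∅ with hγ
  have hγ0 : 0 ≤ γ := (hg ∅).1
  set s : Finset (Finset X) := univ.filter (fun S => g S ≠ 0 ∧ S.Nonempty) with hs
  have hs_mem : ∀ S, S ∈ s ↔ (g S ≠ 0 ∧ S.Nonempty) := by
    intro S; simp [hs]
  have hempty : (∅ : Finset X) ∉ s := by
    rw [hs_mem]; simp
  set q : ℝ := min p (1 / 2) with hq
  have hq0 : 0 ≤ q := le_min hp0 (by norm_num)
  have hq2 : q ≤ 1 / 2 := min_le_right _ _
  have hqp : q ≤ p := min_le_left _ _
  have hnn : ∀ S : Finset X, 0 ≤ g S * q ^ S.card := fun S =>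
    mul_nonneg (hg S).1 (pow_nonneg hq0 _)
  -- the cost at q on the nonempty supports
  have hcostq : γ + ∑ S ∈ s, g S * q ^ S.card ≤ 1 / 2 := by
    have h0 : ∑ S : Finset X, g S * q ^ S.card ≤ ∑ S : Finset X, g S * p ^ S.card :=
      sum_le_sum fun S _ => mul_le_mul_of_nonneg_left (pow_le_pow_left₀ hq0 hqp _) (hg S).1
    have h1 : ∑ S ∈ insert ∅ s, g S * q ^ S.card ≤ ∑ S : Finset X, g S * q ^ S.card :=
      sum_le_sum_of_subset_of_nonneg (subset_univ _) (fun S _ _ => hnn S)
    rw [sum_insert hempty] at h1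
    simp only [card_empty, pow_zero, mul_one] at h1
    linarith
  have hs0 : 0 ≤ ∑ S ∈ s, g S * q ^ S.card := sum_nonneg fun S _ => hnn S
  have hγ1 : γ ≤ 1 / 2 := by linarith
  have hγpos : 0 < 1 - γ := by linarith
  have hgpos : ∀ S ∈ s, 0 < g S := fun S hS =>
    lt_of_le_of_ne (hg S).1 (Ne.symm ((hs_mem S).mp hS).1)
  -- accumulated weights
  set Gw : Finset X → ℝ := fun S => ∑ S' ∈ s.filter (fun S' => S' ⊆ S), g S' with hGw
  have hGw_pos : ∀ S ∈ s, 0 < Gw S := by
    intro S hS
    have h1 : g S ≤ Gw S := by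
      have : S ∈ s.filter (fun S' => S' ⊆ S) := mem_filter.mpr ⟨hS, Subset.refl S⟩
      exact single_le_sum (f := g) (fun T _ => (hg T).1) this
    exact lt_of_lt_of_le (hgpos S hS) h1
  -- chains above a support
  have hchain : ∀ S' ∈ s, ∑ S ∈ s.filter (fun S => S' ⊆ S), q ^ S.card ≤ 2 * q ^ S'.card := by
    intro S' hS'
    refine chain_pow_sum_le _ S' q hq0 hq2 (fun S hS => (mem_filter.mp hS).2) ?_
    intro S hS T hT
    have hS1 := mem_filter.mp hS
    have hT1 := mem_filter.mp hT
    rcases hlam S T ((hs_mem S).mp hS1.1).1 ((hs_mem T).mp hT1.1).1 with h | h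
    · exfalso
      obtain ⟨x, hx⟩ := ((hs_mem S').mp hS').2
      exact (disjoint_left.mp h) (hS1.2 hx) (hT1.2 hx)
    · exact h
  have hGsum : ∑ S ∈ s, Gw S * q ^ S.card ≤ 2 * ∑ S' ∈ s, g S' * q ^ S'.card := by
    have e1 : ∑ S ∈ s, Gw S * q ^ S.card
        = ∑ S ∈ s, ∑ S' ∈ s.filter (fun S' => S' ⊆ S), g S' * q ^ S.card := by
      refine sum_congr rfl fun S _ => ?_
      rw [sum_mul]
    have e2 : ∑ S ∈ s, ∑ S' ∈ s.filter (fun S' => S' ⊆ S), g S' * q ^ S.card
        = ∑ S' ∈ s, ∑ S ∈ s.filter (fun S => S' ⊆ S), g S' * q ^ S.card := by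
      refine sum_comm' ?_
      intro S S'
      simp only [mem_filter]
      tauto
    rw [e1, e2, mul_sum]
    refine sum_le_sum fun S' hS' => ?_
    rw [← mul_sum]
    have := mul_le_mul_of_nonneg_left (hchain S' hS') (hg S').1
    linarith
  set g' : Finset X → ℝ := fun S => min 1 (Gw S / (1 - γ)) with hg'
  set y : Finset X → ℝ := fun S => q ^ S.card / 2 with hy
  have h1 : ∀ S ∈ s, 0 < g' S := fun S hS =>
    lt_min zero_lt_one (div_pos (hGw_pos S hS) hγpos)
  have h2 : ∀ S ∈ s, g' S ≤ 1 := fun S _ => min_le_left _ _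
  have h3 : ∀ S ∈ s, 0 ≤ y S := fun S _ => div_nonneg (pow_nonneg hq0 _) (by norm_num)
  have h4 : ∑ S ∈ s, g' S * y S ≤ 1 / 2 := by
    have e1 : ∑ S ∈ s, g' S * y S ≤ ∑ S ∈ s, (Gw S * q ^ S.card) / (2 * (1 - γ)) := by
      refine sum_le_sum fun S hS => ?_
      have : g' S ≤ Gw S / (1 - γ) := min_le_right _ _
      calc g' S * y S ≤ Gw S / (1 - γ) * y S := mul_le_mul_of_nonneg_right this (h3 S hS)
        _ = (Gw S * q ^ S.card) / (2 * (1 - γ)) := by simp only [hy]; field_simp
    rw [← sum_div] at e1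
    have e2 : (∑ S ∈ s, Gw S * q ^ S.card) / (2 * (1 - γ)) ≤ 1 / 2 := by
      rw [div_le_iff₀ (by linarith)]
      linarith
    linarith
  obtain ⟨𝒜, hA1, hA2, hA3⟩ := weighted_rounding s g' y h1 h2 h3 h4
  set PD : Finset (Finset X) → Prop := fun B => ∀ S ∈ B, ∀ T ∈ B, S ≠ T → Disjoint S T with hPD
  refine ⟨(𝒜.filter PD).image (fun B => B.biUnion id), ?_, ?_⟩
  · intro H hH
    set A : Finset (Finset X) := s.filter (fun S => S ⊆ H) with hA
    have hAs : A ⊆ s := filter_subset _ _
    -- maximal supports inside H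
    set M : Finset (Finset X) := A.filter (fun S => ∀ T ∈ A, S ⊆ T → S = T) with hM
    have hMA : M ⊆ A := filter_subset _ _
    have hMs : M ⊆ s := hMA.trans hAs
    have hMPD : PD M := by
      intro S hS T hT hne
      have hS1 := mem_filter.mp hS
      have hT1 := mem_filter.mp hT
      rcases hlam S T ((hs_mem S).mp (hMs hS)).1 ((hs_mem T).mp (hMs hT)).1 with h | h | h
      · exact h
      · exact absurd (hS1.2 T hT1.1 h) hne
      · exact absurd (hT1.2 S hS1.1 h).symm hne
    have hsumA : 1 - γ ≤ ∑ S ∈ A, g S := by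
      have e1 : ∑ S ∈ insert ∅ A, g S = ∑ S ∈ H.powerset, g S := by
        refine sum_subset ?_ ?_
        · intro S hS
          rw [mem_insert] at hS
          rcases hS with rfl | hS
          · simp
          · exact mem_powerset.mpr (mem_filter.mp hS).2
        · intro S hS hS'
          by_contra hne
          apply hS'
          rw [mem_insert]
          rcases S.eq_empty_or_nonempty with h | h
          · exact Or.inl h
          · right
            rw [hA, mem_filter, hs_mem]
            exact ⟨⟨hne, h⟩, mem_powerset.mp hS⟩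
      have hemptyA : (∅ : Finset X) ∉ A := fun h => hempty (hAs h)
      rw [sum_insert hemptyA] at e1
      have := hcov H hH
      linarith
    have hsumM : ∑ S ∈ A, g S ≤ ∑ S ∈ M, Gw S := by
      have e1 : ∑ S ∈ A, g S ≤ ∑ S ∈ M.biUnion (fun S => s.filter (fun S' => S' ⊆ S)), g S := by
        refine sum_le_sum_of_subset_of_nonneg ?_ (fun T _ _ => (hg T).1)
        intro S' hS'
        obtain ⟨S, hS'S, hSmax⟩ := A.exists_le_maximal hS'
        rw [mem_biUnion]
        refine ⟨S, ?_, mem_filter.mpr ⟨hAs hS', hS'S⟩⟩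
        rw [hM, mem_filter]
        refine ⟨hSmax.1, fun T hT hST => ?_⟩
        exact le_antisymm hST (hSmax.2 hT hST)
      exact e1.trans (sum_biUnion_le_of_nonneg _ _ _ (fun S _ T _ => (hg T).1))
    have hsum' : 1 ≤ ∑ S ∈ M, g' S := by
      have e1 := min_one_sum_le M (fun S => Gw S / (1 - γ))
        (fun S hS => div_nonneg (hGw_pos S (hMs hS)).le hγpos.le)
      have e2 : 1 ≤ ∑ S ∈ M, Gw S / (1 - γ) := by
        rw [← sum_div, le_div_iff₀ hγpos]
        linarith
      rw [min_eq_left e2] at e1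
      exact e1
    obtain ⟨B, hB, hBM⟩ := hA2 M hMs hsum'
    have hBPD : PD B := fun S hS T hT hne => hMPD S (hBM hS) T (hBM hT) hne
    refine ⟨B.biUnion id, mem_image_of_mem _ (mem_filter.mpr ⟨hB, hBPD⟩), ?_⟩
    rw [biUnion_subset]
    intro S hS
    exact (mem_filter.mp (hMA (hBM hS))).2
  · have hpq : p / 168 ≤ q / 84 := by
      rcases le_total p (1 / 2) with h | h
      · rw [hq, min_eq_left h]; linarith
      · rw [hq, min_eq_right h]; linarith
    calc ∑ S ∈ (𝒜.filter PD).image (fun B => B.biUnion id), (p / 168) ^ S.card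
        ≤ ∑ B ∈ 𝒜.filter PD, (p / 168) ^ (B.biUnion id).card := by
          refine sum_image_le_of_nonneg fun U _ => ?_
          positivity
      _ ≤ ∑ B ∈ 𝒜.filter PD, ∏ S ∈ B, (y S / 42) := by
          refine sum_le_sum fun B hB => ?_
          have hB' := mem_filter.mp hB
          have hBs := hA1 B hB'.1
          have hcard : (B.biUnion id).card = ∑ S ∈ B, S.card := by
            refine card_biUnion ?_
            intro S hS T hT hne
            exact hB'.2 S hS T hT hne
          rw [hcard, ← prod_pow_eq_pow_sum]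
          refine prod_le_prod (fun S _ => by positivity) ?_
          intro S hS
          have hSne : S.Nonempty := ((hs_mem S).mp (hBs hS)).2
          have hc : 1 ≤ S.card := hSne.card_pos
          have e1 : (p / 168) ^ S.card ≤ (q / 84) ^ S.card :=
            pow_le_pow_left₀ (by positivity) hpq _
          have e2 : (q / 84) ^ S.card ≤ q ^ S.card / 84 := by
            rw [div_pow]
            have hpow : (84 : ℝ) ≤ 84 ^ S.card := by
              calc (84 : ℝ) = 84 ^ 1 := by norm_num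
                _ ≤ 84 ^ S.card := pow_le_pow_right₀ (by norm_num) hc
            exact div_le_div_of_nonneg_left (pow_nonneg hq0 _) (by norm_num) hpow
          have e3 : y S / 42 = q ^ S.card / 84 := by simp only [hy]; ring
          rw [e3]
          exact e1.trans e2
      _ ≤ ∑ B ∈ 𝒜, ∏ S ∈ B, (y S / 42) := by
          refine sum_le_sum_of_subset_of_nonneg (filter_subset _ _) ?_
          intro B hB _
          refine prod_nonneg fun S hS => ?_
          have := h3 S (hA1 B hB hS)
          positivity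
      _ ≤ 1 / 2 := hA3

end Vale.Agent.Lib.P034
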