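import Vale.Agent.Lib.P034.Basic

namespace Vale.Agent.Lib.P034

open Finset

/-- A factorial bound: `(T/42)^m / m! ≤ (1/7)^m` when `T/2 ≤ m`. -/
lemma pow_div_factorial_le (T : ℝ) (hT : 0 ≤ T) (m : ℕ) (hm : T / 2 ≤ m) :
    (T / 42) ^ m / (m.factorial : ℝ) ≤ (1/7 : ℝ) ^ m := by
  have h1 : (T / 2) ^ m / (m.factorial : ℝ) ≤ Real.exp (T / 2) :=
    Real.pow_div_factorial_le_exp (T / 2) (by positivity) m
  have h2 : Real.exp (T / 2) ≤ Real.exp 1 ^ m := by
    rw [← Real.exp_nat_mul, mul_one]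
    exact Real.exp_le_exp.mpr hm
  have h3 : Real.exp 1 ^ m ≤ (3 : ℝ) ^ m := by
    refine pow_le_pow_left₀ (Real.exp_pos 1).le ?_ m
    have := Real.exp_one_lt_d9
    linarith
  have e : (T / 42) ^ m / (m.factorial : ℝ) = (1/21 : ℝ) ^ m * ((T / 2) ^ m / (m.factorial : ℝ)) := by
    rw [show T / 42 = (1/21 : ℝ) * (T / 2) by ring, mul_pow]
    ring
  rw [e]
  calc (1/21 : ℝ) ^ m * ((T / 2) ^ m / (m.factorial : ℝ)) ≤ (1/21 : ℝ) ^ m * (3 : ℝ) ^ m :=
        mul_le_mul_of_nonneg_left (h1.trans (h2.trans h3)) (by positivity)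
    _ = (1/7 : ℝ) ^ m := by rw [← mul_pow]; norm_num

/-- Sum over a union of families is at most the sum of the sums, for nonnegative terms. -/
lemma sum_biUnion_le_of_nonneg {α β : Type*} [DecidableEq β] (s : Finset α) (t : α → Finset β)
    (f : β → ℝ) (hf : ∀ a ∈ s, ∀ x ∈ t a, 0 ≤ f x) :
    ∑ x ∈ s.biUnion t, f x ≤ ∑ a ∈ s, ∑ x ∈ t a, f x := by
  classical
  induction s using Finset.induction_on with
  | empty => simp
  | insert a s ha ih =>
    rw [biUnion_insert, sum_insert ha]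
    have h1 := sum_union_inter (s₁ := t a) (s₂ := s.biUnion t) (f := f)
    have h2 : 0 ≤ ∑ x ∈ t a ∩ s.biUnion t, f x :=
      sum_nonneg fun x hx => hf a (mem_insert_self a s) x (mem_inter.mp hx).1
    have h3 := ih (fun b hb x hx => hf b (mem_insert_of_mem hb) x hx)
    linarith

/-- Weighted form of the rounding of fractional covers supported on singletons:
items `i ∈ s` carry weights `g i ∈ (0,1]` and nonnegative costs `y i` with
`∑ g i * y i ≤ 1/2`.  Then there is a family of subsets of `s` hitting every set of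
total weight at least one, whose total cost, with every `y i` divided by `42`, is at most `1/2`. -/
theorem weighted_rounding {ι : Type*} [DecidableEq ι] (s : Finset ι) (g y : ι → ℝ)
    (hg0 : ∀ i ∈ s, 0 < g i) (hg1 : ∀ i ∈ s, g i ≤ 1) (hy : ∀ i ∈ s, 0 ≤ y i)
    (hsum : ∑ i ∈ s, g i * y i ≤ 1/2) :
    ∃ 𝒜 : Finset (Finset ι), (∀ B ∈ 𝒜, B ⊆ s) ∧
      (∀ A, A ⊆ s → 1 ≤ ∑ i ∈ A, g i → ∃ B ∈ 𝒜, B ⊆ A) ∧
      ∑ B ∈ 𝒜, ∏ i ∈ B, (y i / 42) ≤ 1/2 := by
  classical
  obtain ⟨J, hJ⟩ : ∃ J, ∀ i ∈ s, cls (g i) < J :=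
    ⟨s.sup (fun i => cls (g i)) + 1, fun i hi =>
      Nat.lt_succ_of_le (le_sup (f := fun i => cls (g i)) hi)⟩
  set C : ℕ → Finset ι := fun j => s.filter (fun i => cls (g i) = j) with hC
  have hCs : ∀ j, C j ⊆ s := fun j => filter_subset _ _
  have hCmem : ∀ j i, i ∈ C j → cls (g i) = j := fun j i hi => (mem_filter.mp hi).2
  set T : ℕ → ℝ := fun j => ∑ i ∈ C j, y i with hT
  have hT0 : ∀ j, 0 ≤ T j := fun j => sum_nonneg fun i hi => hy i (hCs j hi)
  have hmaps : ∀ i ∈ s, cls (g i) ∈ range J := fun i hi => mem_range.mpr (hJ i hi)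
  -- the mass bound
  have hTsum : ∑ j ∈ range J, (1/2 : ℝ) ^ j * T j ≤ 1 := by
    have h1 : ∑ j ∈ range J, (1/2 : ℝ) ^ (j + 1) * T j ≤ ∑ i ∈ s, g i * y i := by
      rw [← sum_fiberwise_of_maps_to (g := fun i => cls (g i)) (t := range J) hmaps]
      refine sum_le_sum fun j _ => ?_
      rw [mul_sum]
      refine sum_le_sum fun i hi => ?_
      have his : i ∈ s := hCs j hi
      have hcl := cls_lt (g i) (hg0 i his)
      rw [hCmem j i hi] at hcl
      exact mul_le_mul_of_nonneg_right hcl.le (hy i his)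
    have h2 : ∑ j ∈ range J, (1/2 : ℝ) ^ (j + 1) * T j
        = (1/2) * ∑ j ∈ range J, (1/2 : ℝ) ^ j * T j := by
      rw [mul_sum]
      refine sum_congr rfl fun j _ => ?_
      ring
    linarith
  set m : ℕ → ℕ := fun j => ⌊T j / 2⌋₊ + 1 + j / 3 with hm
  have hm1 : ∀ j, T j / 2 ≤ (m j : ℝ) := by
    intro j
    have := (Nat.lt_floor_add_one (T j / 2)).le
    have h3 : (0 : ℝ) ≤ ((j / 3 : ℕ) : ℝ) := Nat.cast_nonneg _
    simp only [hm]
    push_cast
    linarith
  have hm2 : ∀ j, ((m j : ℝ) - 1) ≤ T j / 2 + ((j / 3 : ℕ) : ℝ) := by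
    intro j
    have := Nat.floor_le (by have := hT0 j; positivity : (0 : ℝ) ≤ T j / 2)
    simp only [hm]
    push_cast
    linarith
  have hm3 : ∀ j, 1 + j / 3 ≤ m j := by
    intro j
    simp only [hm]
    omega
  refine ⟨(range J).biUnion (fun j => (C j).powersetCard (m j)), ?_, ?_, ?_⟩
  · intro B hB
    rw [mem_biUnion] at hB
    obtain ⟨j, _, hB⟩ := hB
    exact (mem_powersetCard.mp hB).1.trans (hCs j)
  · intro A hAs hA
    by_contra hcon
    push Not at hcon
    -- every class meets A in fewer than m j elements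
    have hsmall : ∀ j ∈ range J, ((A ∩ C j).card : ℝ) ≤ (m j : ℝ) - 1 := by
      intro j hj
      by_contra hlt
      push Not at hlt
      have hlt' : m j ≤ (A ∩ C j).card := by
        have : (m j : ℝ) < ((A ∩ C j).card : ℝ) + 1 := by linarith
        have : m j < (A ∩ C j).card + 1 := by exact_mod_cast this
        omega
      obtain ⟨B, hBsub, hBcard⟩ := exists_subset_card_eq hlt'
      have hBmem : B ∈ (range J).biUnion (fun j => (C j).powersetCard (m j)) := by
        rw [mem_biUnion]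
        exact ⟨j, hj, mem_powersetCard.mpr ⟨hBsub.trans inter_subset_right, hBcard⟩⟩
      exact hcon B hBmem (hBsub.trans inter_subset_left)
    have hA1 : ∑ i ∈ A, g i ≤ ∑ j ∈ range J, (1/2 : ℝ) ^ j * ((A ∩ C j).card : ℝ) := by
      rw [← sum_fiberwise_of_maps_to (g := fun i => cls (g i)) (t := range J)
        (fun i hi => hmaps i (hAs hi))]
      refine sum_le_sum fun j _ => ?_
      have hsub : A.filter (fun i => cls (g i) = j) = A ∩ C j := by
        ext i
        simp only [mem_filter, mem_inter, hC]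
        constructor
        · rintro ⟨h1, h2⟩; exact ⟨h1, hAs h1, h2⟩
        · rintro ⟨h1, _, h2⟩; exact ⟨h1, h2⟩
      rw [hsub]
      calc ∑ i ∈ A ∩ C j, g i ≤ ∑ _i ∈ A ∩ C j, (1/2 : ℝ) ^ j := by
            refine sum_le_sum fun i hi => ?_
            have hi' := mem_inter.mp hi
            have his : i ∈ s := hAs hi'.1
            have := le_cls (g i) (hg0 i his) (hg1 i his)
            rw [hCmem j i hi'.2] at this
            exact this
        _ = (1/2 : ℝ) ^ j * ((A ∩ C j).card : ℝ) := by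
            rw [sum_const, nsmul_eq_mul, mul_comm]
    have hA2 : ∑ j ∈ range J, (1/2 : ℝ) ^ j * ((A ∩ C j).card : ℝ)
        ≤ ∑ j ∈ range J, (1/2 : ℝ) ^ j * (T j / 2 + ((j / 3 : ℕ) : ℝ)) := by
      refine sum_le_sum fun j hj => ?_
      exact mul_le_mul_of_nonneg_left ((hsmall j hj).trans (hm2 j)) (by positivity)
    have hA3 : ∑ j ∈ range J, (1/2 : ℝ) ^ j * (T j / 2 + ((j / 3 : ℕ) : ℝ))
        = (1/2) * ∑ j ∈ range J, (1/2 : ℝ) ^ j * T j
          + ∑ j ∈ range J, (1/2 : ℝ) ^ j * ((j / 3 : ℕ) : ℝ) := by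
      rw [mul_sum, ← sum_add_distrib]
      refine sum_congr rfl fun j _ => ?_
      ring
    have hA4 := sum_half_pow_div3 J
    linarith
  · calc ∑ B ∈ (range J).biUnion (fun j => (C j).powersetCard (m j)), ∏ i ∈ B, (y i / 42)
        ≤ ∑ j ∈ range J, ∑ B ∈ (C j).powersetCard (m j), ∏ i ∈ B, (y i / 42) := by
          refine sum_biUnion_le_of_nonneg _ _ _ ?_
          intro j _ B hB
          refine prod_nonneg fun i hi => ?_
          have := hy i (hCs j ((mem_powersetCard.mp hB).1 hi))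
          positivity
      _ ≤ ∑ j ∈ range J, (1/7 : ℝ) ^ (1 + j / 3) := by
          refine sum_le_sum fun j _ => ?_
          have h1 := sum_powersetCard_prod_le (fun i => y i / 42) (C j)
            (fun i hi => by have := hy i (hCs j hi); positivity) (m j)
          have h2 : ∑ i ∈ C j, y i / 42 = T j / 42 := by
            rw [← sum_div]
          rw [h2] at h1
          have h3 := pow_div_factorial_le (T j) (hT0 j) (m j) (hm1 j)
          have h4 : (1/7 : ℝ) ^ (m j) ≤ (1/7 : ℝ) ^ (1 + j / 3) :=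
            pow_le_pow_of_le_one (by norm_num) (by norm_num) (hm3 j)
          linarith
      _ ≤ 1/2 := sum_pow_div3 (1/7) (by norm_num) le_rfl J

end Vale.Agent.Lib.P034
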